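import Vale.Agent.P045.R4N2

/-!
Ryser's inequality for `r = 4` when the matching number is at most `2`.
-/

open Vale.Agent.P045 in
/-- Every `4`-partite `4`-uniform hypergraph with matching number at most `2` has a vertex cover of
size at most `6`. -/
theorem Vale.Agent.Results.P045.RyserFourNuTwo.result {V : Type*} (H : Finset (Fin 4 → V))
    (hH : MatchingNumberLE H 2) : ∃ C : Finset (Fin 4 × V), C.card ≤ 6 ∧ IsCover H C :=
  R4N2.cover_bound H hH
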