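import Vale.Agent.P045.R6.Main

/-!
Ryser's inequality for intersecting `6`-partite `6`-uniform hypergraphs.
-/

/-- Every `6`-partite `6`-uniform hypergraph in which any two edges share a vertex has a vertex
cover with at most `5` vertices. Edges are functions `Fin 6 → V`; a vertex is a pair of a part and
a value. -/
theorem Vale.Agent.Results.P045.RyserSixIntersecting.result {V : Type*} (H : Finset (Fin 6 → V))
    (hH : ∀ a ∈ H, ∀ b ∈ H, ∃ i, a i = b i) :
    ∃ C : Finset (Fin 6 × V), C.card ≤ 5 ∧ ∀ e ∈ H, ∃ i, (i, e i) ∈ C := by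
  refine Vale.Agent.P045.R6.cover_bound H ?_
  intro M hM hpw
  match M, hM, hpw with
  | [], _, _ => simp
  | [_], _, _ => simp
  | a :: b :: t, hM, hpw =>
    exfalso
    rw [List.pairwise_cons] at hpw
    obtain ⟨i, hi⟩ := hH a (hM a (by simp)) b (hM b (by simp))
    exact hpw.1 b (by simp) i hi
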